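/-
helper13: lower-bound half of S0423 (row 280), i.e. verbatim the second conjunct of the frozen
statement: the coefficient vector `(2, -2/k², …, -2/k²)` on `Fin (k² + 1)` comes within `ε` of
`(3/4) e^{4/3} − e/3` for `k` large.  Main theorem: `Crest.Agent.Helper13.S0423.lower`.
Proved from scratch over Mathlib (no Prelude weakness used).
-/
import Mathlib
import Crest.Prelude.Def_TruncExpWeight

set_option autoImplicit false
open MeasureTheory Real

namespace Crest.Agent.Helper13.S0423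

open Crest.AlgGeometry

theorem tew_nonneg (y : ℝ) : 0 ≤ truncExpWeight y := by
  unfold truncExpWeight
  split_ifs with h
  · norm_num
  · have h' : 0 < y := not_le.mp h
    have := Real.exp_pos (-y)
    positivity

theorem tew_le_one (y : ℝ) : truncExpWeight y ≤ 1 := by
  unfold truncExpWeight
  split_ifs with h
  · norm_num
  · have h1 : 1 + y ≤ Real.exp y := by linarith [Real.add_one_le_exp y]
    have h2 : Real.exp (-y) * Real.exp y = 1 := by rw [← Real.exp_add]; simp
    have h3 := Real.exp_pos (-y)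
    nlinarith

theorem tew_of_nonpos {y : ℝ} (h : y ≤ 0) : truncExpWeight y = 1 := by
  unfold truncExpWeight; simp [h]

theorem tew_of_pos {y : ℝ} (h : 0 < y) : truncExpWeight y = (1 + y) * Real.exp (-y) := by
  unfold truncExpWeight; simp [not_le.mpr h]

theorem tew_antitone {y y' : ℝ} (h : y ≤ y') : truncExpWeight y' ≤ truncExpWeight y := by
  rcases le_or_gt y 0 with hy | hy
  · rw [tew_of_nonpos hy]; exact tew_le_one y'
  · have hy' : 0 < y' := lt_of_lt_of_le hy h
    rw [tew_of_pos hy, tew_of_pos hy']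
    -- (1+y') e^{-y'} ≤ (1+y) e^{-y}
    have hd : 1 + (y' - y) ≤ Real.exp (y' - y) := by linarith [Real.add_one_le_exp (y' - y)]
    have he : Real.exp (-y) = Real.exp (-y') * Real.exp (y' - y) := by
      rw [← Real.exp_add]; congr 1; ring
    rw [he]
    have hp := Real.exp_pos (-y')
    have : (1 + y') ≤ (1 + y) * Real.exp (y' - y) := by nlinarith
    nlinarith

theorem tew_lip {y y' : ℝ} (h : y ≤ y') :
    truncExpWeight y - truncExpWeight y' ≤ 2 * (y' - y) := by
  rcases le_or_gt y' 0 with hy' | hy'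
  · rw [tew_of_nonpos hy', tew_of_nonpos (le_trans h hy')]; linarith
  rcases le_or_gt y 0 with hy | hy
  · rw [tew_of_nonpos hy, tew_of_pos hy']
    have h1 : 1 - y' ≤ Real.exp (-y') := by linarith [Real.add_one_le_exp (-y')]
    have hp := Real.exp_pos (-y')
    rcases le_or_gt y' 2 with h2 | h2
    · nlinarith
    · nlinarith
  · obtain ⟨d, rfl⟩ : ∃ d, y' = y + d := ⟨y' - y, by ring⟩
    have hd0 : 0 ≤ d := by linarith
    rcases le_or_gt (1/2) d with hd1 | hd1
    · have h1 := tew_le_one y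
      have h2 := tew_nonneg (y + d)
      linarith
    · rw [tew_of_pos hy, tew_of_pos hy']
      have he : Real.exp (-(y + d)) = Real.exp (-y) * Real.exp (-d) := by
        rw [← Real.exp_add]; congr 1; ring
      have h1 : 1 - d ≤ Real.exp (-d) := by linarith [Real.add_one_le_exp (-d)]
      have hp := Real.exp_pos (-y)
      have hy1 : y * Real.exp (-y) ≤ 1 := by
        have h3 : y ≤ Real.exp y := by linarith [Real.add_one_le_exp y]
        have h4 : Real.exp (-y) * Real.exp y = 1 := by rw [← Real.exp_add]; simp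
        nlinarith
      have hle1 : Real.exp (-y) ≤ 1 := by
        rw [Real.exp_le_one_iff]; linarith
      rw [he]
      have key : (1 + (y + d)) * (Real.exp (-y) * (1 - d)) ≤
          (1 + (y + d)) * (Real.exp (-y) * Real.exp (-d)) := by
        apply mul_le_mul_of_nonneg_left _ (by linarith)
        exact mul_le_mul_of_nonneg_left h1 hp.le
      have k2 : Real.exp (-y) * d * (y + d) ≤ 2 * d := by
        have e1 : d * (y * Real.exp (-y)) ≤ d * 1 := mul_le_mul_of_nonneg_left hy1 hd0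
        have e2 : d * d * Real.exp (-y) ≤ d * d * 1 :=
          mul_le_mul_of_nonneg_left hle1 (by positivity)
        nlinarith
      nlinarith

theorem tew_lower (u v : ℝ) : truncExpWeight v - 2 * |u - v| ≤ truncExpWeight u := by
  rcases le_total u v with h | h
  · have := tew_antitone h
    have := abs_nonneg (u - v)
    linarith
  · have := tew_lip h
    rw [abs_of_nonneg (by linarith)]
    linarith

theorem tew_measurable : Measurable truncExpWeight := by
  unfold truncExpWeight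
  apply Measurable.ite
  · exact measurableSet_Iic
  · exact measurable_const
  · fun_prop

/-- Lebesgue measure on the positive half-line. -/
noncomputable def mu : Measure ℝ := (volume : Measure ℝ).restrict (Set.Ioi 0)

theorem int_exp_neg : ∫ t, Real.exp (-t) ∂mu = 1 := integral_exp_neg_Ioi_zero

theorem integrable_exp_neg : Integrable (fun t : ℝ => Real.exp (-t)) mu :=
  integrableOn_exp_neg_Ioi 0

theorem tilt_eq (c t : ℝ) : Real.exp ((t - 1) * c - t) = Real.exp (-c) * Real.exp ((c - 1) * t) := by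
  rw [← Real.exp_add]; congr 1; ring

theorem integrable_tilt (c : ℝ) (hc : c < 1) :
    Integrable (fun t : ℝ => Real.exp ((t - 1) * c - t)) mu := by
  have h := (integrableOn_exp_mul_Ioi (a := c - 1) (by linarith) 0).const_mul (Real.exp (-c))
  refine (integrable_congr ?_).mp h
  exact Filter.Eventually.of_forall fun t => (tilt_eq c t).symm

theorem int_tilt (c : ℝ) (hc : c < 1) :
    ∫ t, Real.exp ((t - 1) * c - t) ∂mu = Real.exp (-c) / (1 - c) := by
  have h1 : ∫ t, Real.exp ((t - 1) * c - t) ∂mu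
      = ∫ t, Real.exp (-c) * Real.exp ((c - 1) * t) ∂mu := by
    congr 1; funext t; exact tilt_eq c t
  rw [h1, integral_const_mul]
  have h2 : ∫ t, Real.exp ((c - 1) * t) ∂mu = 1 / (1 - c) := by
    have := integral_exp_mul_Ioi (a := c - 1) (by linarith) 0
    unfold mu
    rw [this]
    have hc' : c - 1 ≠ 0 := by linarith
    have hc'' : 1 - c ≠ 0 := by linarith
    simp
    field_simp
    ring
  rw [h2]; ring

theorem integrable_first :
    Integrable (fun t : ℝ => truncExpWeight (2 * t - 2 / 3) * Real.exp (-t)) mu := by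
  refine Integrable.bdd_mul (c := 1) integrable_exp_neg ?_ ?_
  · exact (tew_measurable.comp (by fun_prop)).aestronglyMeasurable
  · refine Filter.Eventually.of_forall fun t => ?_
    rw [Real.norm_eq_abs, abs_of_nonneg (tew_nonneg _)]
    exact tew_le_one _

theorem piece1 :
    ∫ t in Set.Ioc (0:ℝ) (1/3), truncExpWeight (2 * t - 2 / 3) * Real.exp (-t)
      = 1 - Real.exp (-1 / 3) := by
  have h1 : ∫ t in Set.Ioc (0:ℝ) (1/3), truncExpWeight (2 * t - 2 / 3) * Real.exp (-t)
      = ∫ t in Set.Ioc (0:ℝ) (1/3), Real.exp (-t) := by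
    refine setIntegral_congr_fun measurableSet_Ioc (fun t ht => ?_)
    show truncExpWeight (2 * t - 2 / 3) * Real.exp (-t) = Real.exp (-t)
    rw [tew_of_nonpos (by linarith [ht.2]), one_mul]
  rw [h1, ← intervalIntegral.integral_of_le (by norm_num)]
  have hd : ∀ t ∈ Set.uIcc (0:ℝ) (1/3), HasDerivAt (fun t => -Real.exp (-t)) (Real.exp (-t)) t := by
    intro t _
    have h := ((hasDerivAt_neg t).exp).neg
    simp only [mul_neg, mul_one, neg_neg] at h
    exact h
  rw [intervalIntegral.integral_eq_sub_of_hasDerivAt hd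
    ((by fun_prop : Continuous fun t : ℝ => Real.exp (-t)).intervalIntegrable _ _)]
  rw [show (-1 / 3 : ℝ) = -(1 / 3) by norm_num]
  simp
  ring

theorem piece2 :
    ∫ t in Set.Ioi (1/3 : ℝ), truncExpWeight (2 * t - 2 / 3) * Real.exp (-t)
      = 5 / 9 * Real.exp (-1 / 3) := by
  have h1 : ∫ t in Set.Ioi (1/3 : ℝ), truncExpWeight (2 * t - 2 / 3) * Real.exp (-t)
      = ∫ t in Set.Ioi (1/3 : ℝ), (1 / 3 + 2 * t) * Real.exp (2 / 3 - 3 * t) := by
    refine setIntegral_congr_fun measurableSet_Ioi (fun t ht => ?_)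
    have ht' : (1/3 : ℝ) < t := ht
    show truncExpWeight (2 * t - 2 / 3) * Real.exp (-t) = (1 / 3 + 2 * t) * Real.exp (2 / 3 - 3 * t)
    rw [tew_of_pos (by linarith), mul_assoc, ← Real.exp_add]
    congr 1
    · ring
    · congr 1; ring
  rw [h1]
  have hderiv : ∀ t ∈ Set.Ici (1/3 : ℝ),
      HasDerivAt (fun t : ℝ => -(Real.exp (2 / 3 - 3 * t) * (1 / 3 + 2 * t / 3)))
        ((1 / 3 + 2 * t) * Real.exp (2 / 3 - 3 * t)) t := by
    intro t _
    have e1 : HasDerivAt (fun t : ℝ => 2 / 3 - 3 * t) (-3) t := by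
      have := ((hasDerivAt_id t).const_mul (3:ℝ)).const_sub (2/3 : ℝ)
      simpa using this
    have e2 : HasDerivAt (fun t : ℝ => 1 / 3 + 2 * t / 3) (2 / 3) t := by
      have := (((hasDerivAt_id t).const_mul (2:ℝ)).div_const (3:ℝ)).const_add (1/3 : ℝ)
      simpa using this
    have h : HasDerivAt (fun t : ℝ => -(Real.exp (2 / 3 - 3 * t) * (1 / 3 + 2 * t / 3)))
        (-(Real.exp (2 / 3 - 3 * t) * -3 * (1 / 3 + 2 * t / 3)
          + Real.exp (2 / 3 - 3 * t) * (2 / 3))) t := (e1.exp.mul e2).neg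
    exact h.congr_deriv (by ring)
  have hpos : ∀ t ∈ Set.Ioi (1/3 : ℝ), 0 ≤ (1 / 3 + 2 * t) * Real.exp (2 / 3 - 3 * t) := by
    intro t ht
    have ht' : (1/3 : ℝ) < t := ht
    have := Real.exp_pos (2 / 3 - 3 * t)
    have : 0 ≤ 1 / 3 + 2 * t := by linarith
    positivity
  have htend : Filter.Tendsto (fun t : ℝ => -(Real.exp (2 / 3 - 3 * t) * (1 / 3 + 2 * t / 3)))
      Filter.atTop (nhds 0) := by
    have t3 : Filter.Tendsto (fun t : ℝ => 3 * t) Filter.atTop Filter.atTop :=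
      Filter.tendsto_id.const_mul_atTop (by norm_num : (0:ℝ) < 3)
    have a1 := Real.tendsto_exp_neg_atTop_nhds_zero.comp t3
    have a2 := (Real.tendsto_pow_mul_exp_neg_atTop_nhds_zero 1).comp t3
    have a3 := (a1.const_mul (-(Real.exp (2/3) / 3))).add (a2.const_mul (-(2 * Real.exp (2/3) / 9)))
    simp only [mul_zero, add_zero] at a3
    refine a3.congr (fun t => ?_)
    simp only [Function.comp_apply, pow_one]
    have : Real.exp (2 / 3 - 3 * t) = Real.exp (2 / 3) * Real.exp (-(3 * t)) := by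
      rw [← Real.exp_add]; congr 1
    rw [this]; ring
  rw [integral_Ioi_of_hasDerivAt_of_nonneg' hderiv hpos htend]
  have : (2 / 3 - 3 * (1 / 3) : ℝ) = -1 / 3 := by norm_num
  rw [this]; ring

theorem int_first :
    ∫ t, truncExpWeight (2 * t - 2 / 3) * Real.exp (-t) ∂mu = 1 - 4 / 9 * Real.exp (-1 / 3) := by
  have hint := integrable_first
  unfold mu at hint ⊢
  have hsplit : Set.Ioi (0:ℝ) = Set.Ioc 0 (1/3) ∪ Set.Ioi (1/3) :=
    (Set.Ioc_union_Ioi_eq_Ioi (by norm_num)).symm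
  have hi : IntegrableOn (fun t : ℝ => truncExpWeight (2 * t - 2 / 3) * Real.exp (-t))
      (Set.Ioi 0) := hint
  rw [hsplit] at hi ⊢
  rw [setIntegral_union (Set.Ioc_disjoint_Ioi le_rfl) measurableSet_Ioi
    (hi.mono_set Set.subset_union_left) (hi.mono_set Set.subset_union_right), piece1, piece2]
  ring

instance : SigmaFinite mu := by unfold mu; infer_instance

/-- product function: `f0` on coordinate `0`, `f1` on the other coordinates -/
noncomputable def prodFn {M : ℕ} (f0 f1 : ℝ → ℝ) (x : Fin (M + 1) → ℝ) : ℝ :=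
  f0 (x 0) * ∏ j : Fin M, f1 (x j.succ)

/-- the product measure -/
noncomputable def piMu (M : ℕ) : Measure (Fin (M + 1) → ℝ) := Measure.pi (fun _ => mu)

theorem prodFn_eq {M : ℕ} (f0 f1 : ℝ → ℝ) (x : Fin (M + 1) → ℝ) :
    prodFn f0 f1 x = ∏ i, (Fin.cons f0 (fun _ => f1) : Fin (M + 1) → ℝ → ℝ) i (x i) := by
  rw [Fin.prod_univ_succ]; simp [prodFn]

theorem integrable_prodFn {M : ℕ} {f0 f1 : ℝ → ℝ} (h0 : Integrable f0 mu)
    (h1 : Integrable f1 mu) : Integrable (prodFn (M := M) f0 f1) (piMu M) := by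
  have : Integrable (fun x : Fin (M + 1) → ℝ =>
      ∏ i, (Fin.cons f0 (fun _ => f1) : Fin (M + 1) → ℝ → ℝ) i (x i))
      (Measure.pi fun _ : Fin (M + 1) => mu) :=
    Integrable.fintype_prod (fun i => by
      refine Fin.cases ?_ ?_ i
      · simpa using h0
      · intro j; simpa using h1)
  refine (integrable_congr ?_).mp this
  exact Filter.Eventually.of_forall fun x => (prodFn_eq f0 f1 x).symm

theorem integral_prodFn {M : ℕ} (f0 f1 : ℝ → ℝ) :
    ∫ x, prodFn (M := M) f0 f1 x ∂(piMu M) = (∫ t, f0 t ∂mu) * (∫ t, f1 t ∂mu) ^ M := by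
  have h1 : (fun x => prodFn (M := M) f0 f1 x)
      = fun x => ∏ i, (Fin.cons f0 (fun _ => f1) : Fin (M + 1) → ℝ → ℝ) i (x i) :=
    funext (prodFn_eq f0 f1)
  rw [h1]; unfold piMu
  rw [integral_fintype_prod_eq_prod, Fin.prod_univ_succ]; simp

/-- the coefficient vector `(2, -2/M, …, -2/M)` -/
noncomputable def coef (M : ℕ) : Fin (M + 1) → ℝ := Fin.cons 2 (fun _ => -2 / (M : ℝ))

theorem sum_coef (M : ℕ) (hM : 0 < M) : ∑ i, coef M i = 0 := by
  have hM' : (M : ℝ) ≠ 0 := by exact_mod_cast hM.ne'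
  simp [coef, Fin.sum_univ_succ]
  field_simp
  ring

theorem abs_le_exp_add (t : ℝ) : |t| ≤ Real.exp t + Real.exp (-t) := by
  have h1 := Real.add_one_le_exp t
  have h2 := Real.add_one_le_exp (-t)
  have h3 := Real.exp_pos t
  have h4 := Real.exp_pos (-t)
  rw [abs_le]; constructor <;> linarith

theorem pointwise (M k : ℕ) (hk : 0 < k) (hM : (M : ℝ) = (k : ℝ) ^ 2) (x : Fin (M + 1) → ℝ) :
    prodFn (fun t => truncExpWeight (2 * t - 2 / 3) * Real.exp (-t)) (fun t => Real.exp (-t)) x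
      - 4 / (k : ℝ) * (prodFn (fun t => Real.exp (-t)) (fun t => Real.exp ((t - 1) * (1 / (k : ℝ)) - t)) x
        + prodFn (fun t => Real.exp (-t)) (fun t => Real.exp ((t - 1) * (-(1 / (k : ℝ))) - t)) x)
    ≤ truncExpWeight (4 / 3 + ∑ i, coef M i * x i) * Real.exp (-∑ i, x i) := by
  have hk' : (0 : ℝ) < k := by exact_mod_cast hk
  have hM0 : (M : ℝ) ≠ 0 := by rw [hM]; positivity
  set S : ℝ := ∑ j : Fin M, x j.succ with hS
  have hsum : ∑ i, coef M i * x i = 2 * x 0 - 2 / (M : ℝ) * S := by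
    rw [Fin.sum_univ_succ]
    simp only [coef, Fin.cons_zero, Fin.cons_succ]
    rw [← Finset.mul_sum]
    ring
  have hsumx : ∑ i, x i = x 0 + S := by rw [Fin.sum_univ_succ]
  have hprod : ∀ c : ℝ, ∏ j : Fin M, Real.exp ((x j.succ - 1) * c - x j.succ)
      = Real.exp (c * (S - M) - S) := by
    intro c
    rw [← Real.exp_sum]
    congr 1
    rw [Finset.sum_sub_distrib, ← Finset.sum_mul, Finset.sum_sub_distrib]
    simp
    ring
  have hprod0 : ∏ j : Fin M, Real.exp (-x j.succ) = Real.exp (-S) := by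
    rw [← Real.exp_sum]; congr 1; rw [Finset.sum_neg_distrib]
  simp only [prodFn]
  rw [hprod, hprod, hprod0, hsum, hsumx]
  set t : ℝ := (S - M) / k with ht
  have e1 : Real.exp (1 / (k : ℝ) * (S - M) - S) = Real.exp (-S) * Real.exp t := by
    rw [← Real.exp_add]; congr 1; rw [ht]; ring
  have e2 : Real.exp (-(1 / (k : ℝ)) * (S - M) - S) = Real.exp (-S) * Real.exp (-t) := by
    rw [← Real.exp_add]; congr 1; rw [ht]; ring
  have e3 : Real.exp (-(x 0 + S)) = Real.exp (-x 0) * Real.exp (-S) := by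
    rw [← Real.exp_add]; congr 1; ring
  rw [e1, e2, e3]
  have huv : (4 / 3 + (2 * x 0 - 2 / (M : ℝ) * S)) - (2 * x 0 - 2 / 3) = -(2 / (k : ℝ)) * t := by
    rw [ht, hM]; field_simp; ring
  have hlow := tew_lower (4 / 3 + (2 * x 0 - 2 / (M : ℝ) * S)) (2 * x 0 - 2 / 3)
  rw [huv, abs_mul, abs_neg, abs_of_pos (by positivity : (0:ℝ) < 2 / k)] at hlow
  have habs := abs_le_exp_add t
  have hE0 : 0 < Real.exp (-x 0) := Real.exp_pos _
  have hES : 0 < Real.exp (-S) := Real.exp_pos _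
  have hE : 0 < Real.exp (-x 0) * Real.exp (-S) := mul_pos hE0 hES
  have h4k : 0 < 4 / (k : ℝ) := by positivity
  have key : truncExpWeight (2 * x 0 - 2 / 3) - 4 / (k : ℝ) * (Real.exp t + Real.exp (-t))
      ≤ truncExpWeight (4 / 3 + (2 * x 0 - 2 / (M : ℝ) * S)) := by
    have : 2 * (2 / (k : ℝ) * |t|) ≤ 4 / (k : ℝ) * (Real.exp t + Real.exp (-t)) := by
      have := mul_le_mul_of_nonneg_left habs h4k.le
      calc 2 * (2 / (k : ℝ) * |t|) = 4 / (k : ℝ) * |t| := by ring
        _ ≤ _ := this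
    linarith
  have := mul_le_mul_of_nonneg_right key hE.le
  calc _ = (truncExpWeight (2 * x 0 - 2 / 3) - 4 / (k : ℝ) * (Real.exp t + Real.exp (-t)))
        * (Real.exp (-x 0) * Real.exp (-S)) := by ring
    _ ≤ _ := this

/-- the integrand for the coefficient vector `coef M` -/
noncomputable def G (M : ℕ) (x : Fin (M + 1) → ℝ) : ℝ :=
  truncExpWeight (4 / 3 + ∑ i, coef M i * x i) * Real.exp (-∑ i, x i)

theorem G_measurable (M : ℕ) : Measurable (G M) := by
  unfold G
  refine (tew_measurable.comp ?_).mul ?_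
  · fun_prop
  · fun_prop

theorem exp_neg_sum {M : ℕ} (x : Fin (M + 1) → ℝ) :
    Real.exp (-∑ i, x i) = prodFn (fun t => Real.exp (-t)) (fun t => Real.exp (-t)) x := by
  simp only [prodFn]
  rw [Fin.sum_univ_succ, ← Real.exp_sum, ← Real.exp_add]
  congr 1
  rw [Finset.sum_neg_distrib]; ring

theorem G_integrable (M : ℕ) : Integrable (G M) (piMu M) := by
  refine Integrable.mono' (integrable_prodFn (M := M) integrable_exp_neg integrable_exp_neg)
    (G_measurable M).aestronglyMeasurable ?_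
  refine Filter.Eventually.of_forall fun x => ?_
  rw [Real.norm_eq_abs, ← exp_neg_sum]
  unfold G
  rw [abs_of_nonneg (mul_nonneg (tew_nonneg _) (Real.exp_pos _).le)]
  calc _ ≤ 1 * Real.exp (-∑ i, x i) :=
        mul_le_mul_of_nonneg_right (tew_le_one _) (Real.exp_pos _).le
    _ = _ := one_mul _

theorem main_bound (M k : ℕ) (hk : 2 ≤ k) (hM : (M : ℝ) = (k : ℝ) ^ 2) :
    1 - 4 / 9 * Real.exp (-1 / 3)
      - 4 / (k : ℝ) * ((Real.exp (-(1 / (k : ℝ))) / (1 - 1 / (k : ℝ))) ^ M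
        + (Real.exp (-(-(1 / (k : ℝ)))) / (1 - -(1 / (k : ℝ)))) ^ M)
    ≤ ∫ x, G M x ∂(piMu M) := by
  have hk0 : 0 < k := by omega
  have hk' : (2 : ℝ) ≤ k := by exact_mod_cast hk
  have hc1 : 1 / (k : ℝ) < 1 := by
    rw [div_lt_one (by linarith)]; linarith
  have hc2 : -(1 / (k : ℝ)) < 1 := by
    have : 0 < 1 / (k : ℝ) := by positivity
    linarith
  have i1 : Integrable (prodFn (M := M) (fun t => truncExpWeight (2 * t - 2 / 3) * Real.exp (-t))
      (fun t => Real.exp (-t))) (piMu M) := integrable_prodFn integrable_first integrable_exp_neg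
  have i2 : Integrable (prodFn (M := M) (fun t => Real.exp (-t))
      (fun t => Real.exp ((t - 1) * (1 / (k : ℝ)) - t))) (piMu M) :=
    integrable_prodFn integrable_exp_neg (integrable_tilt _ hc1)
  have i3 : Integrable (prodFn (M := M) (fun t => Real.exp (-t))
      (fun t => Real.exp ((t - 1) * (-(1 / (k : ℝ))) - t))) (piMu M) :=
    integrable_prodFn integrable_exp_neg (integrable_tilt _ hc2)
  have hle : ∫ x, (prodFn (M := M) (fun t => truncExpWeight (2 * t - 2 / 3) * Real.exp (-t))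
        (fun t => Real.exp (-t)) x
      - 4 / (k : ℝ) * (prodFn (fun t => Real.exp (-t))
          (fun t => Real.exp ((t - 1) * (1 / (k : ℝ)) - t)) x
        + prodFn (fun t => Real.exp (-t))
          (fun t => Real.exp ((t - 1) * (-(1 / (k : ℝ))) - t)) x)) ∂(piMu M)
      ≤ ∫ x, G M x ∂(piMu M) := by
    refine integral_mono (i1.sub ((i2.add i3).const_mul _)) (G_integrable M) ?_
    intro x
    exact pointwise M k hk0 hM x
  have heq : ∫ x, (prodFn (M := M) (fun t => truncExpWeight (2 * t - 2 / 3) * Real.exp (-t))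
        (fun t => Real.exp (-t)) x
      - 4 / (k : ℝ) * (prodFn (fun t => Real.exp (-t))
          (fun t => Real.exp ((t - 1) * (1 / (k : ℝ)) - t)) x
        + prodFn (fun t => Real.exp (-t))
          (fun t => Real.exp ((t - 1) * (-(1 / (k : ℝ))) - t)) x)) ∂(piMu M)
      = 1 - 4 / 9 * Real.exp (-1 / 3)
      - 4 / (k : ℝ) * ((Real.exp (-(1 / (k : ℝ))) / (1 - 1 / (k : ℝ))) ^ M
        + (Real.exp (-(-(1 / (k : ℝ)))) / (1 - -(1 / (k : ℝ)))) ^ M) := by
    have i23 : Integrable (fun x : Fin (M + 1) → ℝ => 4 / (k : ℝ) * (prodFn (fun t => Real.exp (-t))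
          (fun t => Real.exp ((t - 1) * (1 / (k : ℝ)) - t)) x
        + prodFn (fun t => Real.exp (-t))
          (fun t => Real.exp ((t - 1) * (-(1 / (k : ℝ))) - t)) x)) (piMu M) :=
      (i2.add i3).const_mul _
    rw [integral_sub i1 i23, integral_const_mul, integral_add i2 i3]
    rw [integral_prodFn, integral_prodFn, integral_prodFn, int_first, int_exp_neg,
      int_tilt _ hc1, int_tilt _ hc2]
    ring
  linarith

theorem A_bound (c : ℝ) (hc0 : 0 < c) (hc : c ≤ 1 / 2) :
    Real.exp (-c) / (1 - c) ≤ Real.exp (2 * c ^ 2) := by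
  have h1 : 0 < 1 - c := by linarith
  have h2 : 1 / (1 - c) ≤ Real.exp (c / (1 - c)) := by
    have := Real.add_one_le_exp (c / (1 - c))
    have e : 1 / (1 - c) = c / (1 - c) + 1 := by field_simp; ring
    rw [e]; exact this
  have h3 : -c + c / (1 - c) ≤ 2 * c ^ 2 := by
    have e : -c + c / (1 - c) = c ^ 2 / (1 - c) := by field_simp; ring
    rw [e, div_le_iff₀ h1]
    nlinarith [mul_nonneg (sq_nonneg c) (by linarith : (0 : ℝ) ≤ 1 - 2 * c)]
  calc Real.exp (-c) / (1 - c) = Real.exp (-c) * (1 / (1 - c)) := by ring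
    _ ≤ Real.exp (-c) * Real.exp (c / (1 - c)) :=
        mul_le_mul_of_nonneg_left h2 (Real.exp_pos _).le
    _ = Real.exp (-c + c / (1 - c)) := (Real.exp_add _ _).symm
    _ ≤ Real.exp (2 * c ^ 2) := Real.exp_le_exp.mpr h3

theorem B_bound (c : ℝ) (hc0 : 0 < c) :
    Real.exp c / (1 + c) ≤ Real.exp (c ^ 2) := by
  have h1 : 0 < 1 + c := by linarith
  have h2 : 1 / (1 + c) ≤ Real.exp (-(c / (1 + c))) := by
    have := Real.add_one_le_exp (-(c / (1 + c)))
    have e : 1 / (1 + c) = -(c / (1 + c)) + 1 := by field_simp; ring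
    rw [e]; exact this
  have h3 : c + -(c / (1 + c)) ≤ c ^ 2 := by
    have e : c + -(c / (1 + c)) = c ^ 2 / (1 + c) := by field_simp; ring
    rw [e, div_le_iff₀ h1]
    nlinarith [mul_nonneg (sq_nonneg c) hc0.le]
  calc Real.exp c / (1 + c) = Real.exp c * (1 / (1 + c)) := by ring
    _ ≤ Real.exp c * Real.exp (-(c / (1 + c))) :=
        mul_le_mul_of_nonneg_left h2 (Real.exp_pos _).le
    _ = Real.exp (c + -(c / (1 + c))) := (Real.exp_add _ _).symm
    _ ≤ Real.exp (c ^ 2) := Real.exp_le_exp.mpr h3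

theorem pow_bounds (M k : ℕ) (hk : 2 ≤ k) (hM : (M : ℝ) = (k : ℝ) ^ 2) :
    (Real.exp (-(1 / (k : ℝ))) / (1 - 1 / (k : ℝ))) ^ M ≤ Real.exp 2 ∧
    (Real.exp (-(-(1 / (k : ℝ)))) / (1 - -(1 / (k : ℝ)))) ^ M ≤ Real.exp 1 := by
  have hk' : (2 : ℝ) ≤ k := by exact_mod_cast hk
  have hkpos : (0 : ℝ) < k := by linarith
  have hc0 : 0 < 1 / (k : ℝ) := by positivity
  have hc : 1 / (k : ℝ) ≤ 1 / 2 := by
    rw [div_le_div_iff₀ hkpos (by norm_num)]; linarith
  have hMc : (M : ℝ) * (1 / (k : ℝ)) ^ 2 = 1 := by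
    rw [hM]; field_simp
  constructor
  · have hA := A_bound _ hc0 hc
    have hA0 : 0 ≤ Real.exp (-(1 / (k : ℝ))) / (1 - 1 / (k : ℝ)) := by
      apply div_nonneg (Real.exp_pos _).le; linarith
    calc _ ≤ (Real.exp (2 * (1 / (k : ℝ)) ^ 2)) ^ M := pow_le_pow_left₀ hA0 hA M
      _ = Real.exp (M * (2 * (1 / (k : ℝ)) ^ 2)) := (Real.exp_nat_mul _ _).symm
      _ = Real.exp 2 := by congr 1; linear_combination 2 * hMc
  · have hB := B_bound _ hc0
    have e : Real.exp (-(-(1 / (k : ℝ)))) / (1 - -(1 / (k : ℝ)))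
        = Real.exp (1 / (k : ℝ)) / (1 + 1 / (k : ℝ)) := by
      rw [neg_neg, sub_neg_eq_add]
    rw [e]
    have hB0 : 0 ≤ Real.exp (1 / (k : ℝ)) / (1 + 1 / (k : ℝ)) := by positivity
    calc _ ≤ (Real.exp ((1 / (k : ℝ)) ^ 2)) ^ M := pow_le_pow_left₀ hB0 hB M
      _ = Real.exp (M * (1 / (k : ℝ)) ^ 2) := (Real.exp_nat_mul _ _).symm
      _ = Real.exp 1 := by rw [hMc]

/-- **Lower-bound half of S0423** (verbatim the second conjunct of the frozen statement). -/
theorem lower : ∀ ε : ℝ, 0 < ε → ∃ (N : ℕ) (a : Fin N → ℝ), 1 ≤ N ∧ ∑ i, a i = 0 ∧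
      3 / 4 * Real.exp (4 / 3) - Real.exp 1 / 3 - ε <
        Real.exp (4 / 3) / (4 / 3) *
          ∫ x in Set.pi Set.univ (fun _ : Fin N => Set.Ioi (0 : ℝ)),
            Crest.AlgGeometry.truncExpWeight (4 / 3 + ∑ i, a i * x i) * Real.exp (-∑ i, x i) := by
  intro ε hε
  obtain ⟨k, hk⟩ : ∃ k : ℕ, k = ⌈324 / ε⌉₊ + 2 := ⟨_, rfl⟩
  have hk2 : 2 ≤ k := by omega
  have hkε : 324 / ε < (k : ℝ) := by
    have := Nat.le_ceil (324 / ε)
    rw [hk]; push_cast; linarith
  have hkpos : (0 : ℝ) < k := by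
    have : (2 : ℝ) ≤ k := by exact_mod_cast hk2
    linarith
  refine ⟨k ^ 2 + 1, coef (k ^ 2), by omega, sum_coef _ (by positivity), ?_⟩
  have hM : ((k ^ 2 : ℕ) : ℝ) = (k : ℝ) ^ 2 := by push_cast; rfl
  have hint : ∫ x in Set.pi Set.univ (fun _ : Fin (k ^ 2 + 1) => Set.Ioi (0 : ℝ)),
      truncExpWeight (4 / 3 + ∑ i, coef (k ^ 2) i * x i) * Real.exp (-∑ i, x i)
      = ∫ x, G (k ^ 2) x ∂(piMu (k ^ 2)) := by
    rw [volume_pi, Measure.restrict_pi_pi]
    rfl
  rw [hint]
  have hmain := main_bound (k ^ 2) k hk2 hM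
  obtain ⟨hA, hB⟩ := pow_bounds (k ^ 2) k hk2 hM
  have hE : 0 < Real.exp (4 / 3) := Real.exp_pos _
  have he1 : Real.exp 1 < 3 := lt_trans Real.exp_one_lt_d9 (by norm_num)
  have he2 : Real.exp 2 < 9 := by
    have : Real.exp 2 = Real.exp 1 * Real.exp 1 := by rw [← Real.exp_add]; norm_num
    rw [this]; nlinarith [Real.exp_pos 1]
  have hE9 : Real.exp (4 / 3) < 9 :=
    lt_of_le_of_lt (Real.exp_le_exp.mpr (by norm_num)) he2
  have hEX : Real.exp (4 / 3) * Real.exp (-1 / 3) = Real.exp 1 := by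
    rw [← Real.exp_add]; norm_num
  obtain ⟨T, hTdef⟩ : ∃ T : ℝ, T = (Real.exp (-(1 / (k : ℝ))) / (1 - 1 / (k : ℝ))) ^ (k ^ 2)
        + (Real.exp (-(-(1 / (k : ℝ)))) / (1 - -(1 / (k : ℝ)))) ^ (k ^ 2) := ⟨_, rfl⟩
  rw [← hTdef] at hmain
  have hT : T ≤ 12 := by rw [hTdef]; linarith
  have h324 : 324 / (k : ℝ) < ε := by
    rw [div_lt_iff₀ hkpos]; rw [div_lt_iff₀ hε] at hkε; linarith
  have hET : Real.exp (4 / 3) * T ≤ 108 := by
    calc Real.exp (4 / 3) * T ≤ Real.exp (4 / 3) * 12 := mul_le_mul_of_nonneg_left hT hE.le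
      _ ≤ 108 := by linarith
  have step1 : Real.exp (4 / 3) / (4 / 3) * (1 - 4 / 9 * Real.exp (-1 / 3) - 4 / (k : ℝ) * T)
      ≤ Real.exp (4 / 3) / (4 / 3) * ∫ x, G (k ^ 2) x ∂(piMu (k ^ 2)) :=
    mul_le_mul_of_nonneg_left hmain (by positivity)
  have step2 : Real.exp (4 / 3) / (4 / 3) * (1 - 4 / 9 * Real.exp (-1 / 3) - 4 / (k : ℝ) * T)
      = 3 / 4 * Real.exp (4 / 3) - Real.exp 1 / 3 - 3 * (Real.exp (4 / 3) * T) / k := by
    rw [← hEX]; field_simp; ring
  have step3 : 3 * (Real.exp (4 / 3) * T) / k ≤ 324 / k := by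
    apply div_le_div_of_nonneg_right _ hkpos.le; linarith
  linarith


end Crest.Agent.Helper13.S0423
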